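import Mathlib

/-!
# Closed words with ties: the topological half

`B u`: the legal hexagons inside the palettes of the time `u`.  `Tie u`: the classes which are tied at the
time `u`; every class at most once per window of length one.
-/

namespace Vale.Agent.P032.Words6.H984

open Set Filter Topology

/-- a chain of labels -/
def Chn {C : Type*} (Rl : Set C → ℕ → ℕ → Prop) : List (Set C) → ℕ → ℕ → Prop
  | [], x, y => x = y
  | S :: L, x, y => ∃ z, Rl S x z ∧ Chn Rl L z y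

variable {H C : Type*} {B : ℝ → Set H} {lab : H → ℕ} {Tie : ℝ → Set C}
  {Rl : Set C → ℕ → ℕ → Prop}

/-- no ties: the label is constant -/
theorem quiet (near : ∀ u, ∀ᶠ v in 𝓝 u, B v ⊆ B u) (ne : ∀ u, (B u).Nonempty)
    (h0 : ∀ x y, Rl ∅ x y → x = y) (hR : ∀ u, ∀ h ∈ B u, ∀ h' ∈ B u, Rl (Tie u) (lab h) (lab h'))
    {a b : ℝ} (hab : a ≤ b) (hT : ∀ u ∈ Icc a b, Tie u = ∅) {h h' : H} (hh : h ∈ B a)
    (hh' : h' ∈ B b) : lab h = lab h' := by
  choose g hg using ne
  have hc : ∀ u ∈ Icc a b, ∀ k ∈ B u, ∀ k' ∈ B u, lab k = lab k' := by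
    intro u hu k hk k' hk'
    have := hR u k hk k' hk'
    rw [hT u hu] at this
    exact h0 _ _ this
  have hf : ContinuousOn (fun u => lab (g u)) (Icc a b) := by
    intro u hu
    have : ∀ᶠ v in 𝓝[Icc a b] u, lab (g v) = lab (g u) := by
      filter_upwards [nhdsWithin_le_nhds (near u)] with v hv
      exact hc u hu _ (hv (hg v)) _ (hg u)
    exact continuousWithinAt_const.congr_of_eventuallyEq this rfl
  have h1 := isPreconnected_Icc.constant hf (left_mem_Icc.mpr hab) (right_mem_Icc.mpr hab)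
  have h2 := hc a (left_mem_Icc.mpr hab) h hh (g a) (hg a)
  have h3 := hc b (right_mem_Icc.mpr hab) (g b) (hg b) h' hh'
  exact h2.trans (h1.trans h3)

/-- the walk through the ties in increasing order -/
theorem walk (near : ∀ u, ∀ᶠ v in 𝓝 u, B v ⊆ B u) (ne : ∀ u, (B u).Nonempty)
    (h0 : ∀ x y, Rl ∅ x y → x = y) (hR : ∀ u, ∀ h ∈ B u, ∀ h' ∈ B u, Rl (Tie u) (lab h) (lab h'))
    {b : ℝ} : ∀ (L : List ℝ) (a : ℝ), L.Pairwise (· < ·) → (∀ t ∈ L, a < t ∧ t < b) → a < b →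
      (∀ u ∈ Icc a b, u ∉ L → Tie u = ∅) → ∀ {h h' : H}, h ∈ B a → h' ∈ B b →
      Chn Rl (L.map Tie) (lab h) (lab h') := by
  intro L
  induction L with
  | nil =>
    intro a _ _ hab hT h h' hh hh'
    exact quiet near ne h0 hR hab.le (fun u hu => hT u hu (by simp)) hh hh'
  | cons t L ih =>
    intro a hs ht hab hT h h' hh hh'
    obtain ⟨hs1, hs2⟩ := List.pairwise_cons.mp hs
    have hat := (ht t (by simp)).1
    have htb := (ht t (by simp)).2
    have hLn : ∀ᶠ v in 𝓝[>] t, ∀ u ∈ L, v < u := by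
      have h1 : ∀ᶠ v in 𝓝[>] t, ∀ u ∈ L.toFinset, v < u := by
        refine (Finset.eventually_all _).mpr fun u hu => ?_
        exact nhdsWithin_le_nhds (Iio_mem_nhds (hs1 u (List.mem_toFinset.mp hu)))
      filter_upwards [h1] with v hv u hu
      exact hv u (List.mem_toFinset.mpr hu)
    have nl : ∀ᶠ v in 𝓝[<] t, B v ⊆ B t := nhdsWithin_le_nhds (near t)
    have nr : ∀ᶠ v in 𝓝[>] t, B v ⊆ B t := nhdsWithin_le_nhds (near t)
    have il : ∀ᶠ v in 𝓝[<] t, v ∈ Ioo a t := Ioo_mem_nhdsLT hat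
    have ir : ∀ᶠ v in 𝓝[>] t, v ∈ Ioo t b := Ioo_mem_nhdsGT htb
    obtain ⟨v, hv1, hv2⟩ := (nl.and il).exists
    obtain ⟨v', ⟨hw1, hw2⟩, hw3⟩ := ((nr.and ir).and hLn).exists
    obtain ⟨k, hk⟩ := ne v
    obtain ⟨k', hk'⟩ := ne v'
    have n1 : lab h = lab k := quiet near ne h0 hR hv2.1.le (fun u hu => hT u
      ⟨hu.1, by linarith [hu.2, hv2.2]⟩ (by
        intro huL
        rcases List.mem_cons.mp huL with e | e
        · rw [e] at hu; linarith [hu.2, hv2.2]
        · have := hs1 u e; linarith [hu.2, hv2.2])) hh hk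
    have n2 := hR t k (hv1 hk) k' (hw1 hk')
    have n3 := ih v' hs2 (fun u hu => ⟨hw3 u hu, (ht u (by simp [hu])).2⟩) hw2.2
      (fun u hu huL => hT u ⟨by linarith [hu.1, hw2.1], hu.2⟩ (by
        intro hc
        rcases List.mem_cons.mp hc with e | e
        · rw [e] at hu; linarith [hu.1, hw2.1]
        · exact huL e)) hk' hh'
    rw [List.map_cons]
    rw [n1]
    exact ⟨lab k', n2, n3⟩

/-- **The closed word with ties.** -/
theorem loop_ties [Finite C] (near : ∀ u, ∀ᶠ v in 𝓝 u, B v ⊆ B u) (ne : ∀ u, (B u).Nonempty)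
    (once : ∀ c u v, c ∈ Tie u → c ∈ Tie v → ∃ n : ℤ, v = u + n)
    (h0 : ∀ x y, Rl ∅ x y → x = y)
    (hR : ∀ u, ∀ h ∈ B u, ∀ h' ∈ B u, Rl (Tie u) (lab h) (lab h')) :
    ∃ a : ℝ, ∀ h ∈ B a, ∀ h' ∈ B (a + 1), ∃ Ss : List (Set C), (∀ S ∈ Ss, S.Nonempty) ∧
      Ss.Pairwise Disjoint ∧ Chn Rl Ss (lab h) (lab h') := by
  classical
  have : Fintype C := Fintype.ofFinite C
  -- a time in `[0, 1)` for every class
  have hrep : ∀ c : C, ∃ t : ℝ, ∀ u, c ∈ Tie u → ∃ n : ℤ, u = t + n := by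
    intro c
    by_cases h : ∃ u, c ∈ Tie u
    · obtain ⟨u, hu⟩ := h
      exact ⟨u, fun v hv => once c u v hu hv⟩
    · push Not at h
      exact ⟨0, fun u hu => absurd hu (h u)⟩
  choose t ht using hrep
  -- a base which is no tie
  obtain ⟨a, ha⟩ : ∃ a : ℝ, ∀ c : C, Int.fract (t c) ≠ Int.fract a := by
    have hfin : (Set.range fun c : C => Int.fract (t c)).Finite := Set.finite_range _
    have hinf : (Ioo (0 : ℝ) 1).Infinite := Ioo_infinite one_pos
    obtain ⟨a, ha, ha'⟩ := (hinf.sdiff hfin).nonempty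
    refine ⟨a, fun c hc => ha' ⟨c, ?_⟩⟩
    have : Int.fract a = a := Int.fract_eq_self.mpr ⟨ha.1.le, ha.2⟩
    rw [this] at hc
    exact hc
  have hna : ∀ u c, c ∈ Tie u → ∀ n : ℤ, u ≠ a + n := by
    intro u c hc n hn
    obtain ⟨m, hm⟩ := ht c u hc
    apply ha c
    have : t c = a + ((n - m : ℤ) : ℝ) := by push_cast; linarith
    rw [this, Int.fract_add_intCast]
  refine ⟨a, fun h hh h' hh' => ?_⟩
  -- the ties in the window
  set τ : C → ℝ := fun c => a + Int.fract (t c - a) with hτ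
  have hτ1 : ∀ c, a ≤ τ c ∧ τ c < a + 1 := by
    intro c
    have h1 := Int.fract_nonneg (t c - a)
    have h2 := Int.fract_lt_one (t c - a)
    constructor <;> simp only [hτ] <;> linarith
  have hτ2 : ∀ u c, c ∈ Tie u → u ∈ Icc a (a + 1) → u = τ c := by
    intro u c hc hu
    obtain ⟨m, hm⟩ := ht c u hc
    have e : t c = u - m := by linarith
    have hu1 : a < u := lt_of_le_of_ne hu.1 (fun h' => hna u c hc 0 (by rw [← h']; simp))
    have hu2 : u < a + 1 := lt_of_le_of_ne hu.2 (fun h' => hna u c hc 1 (by rw [h']; simp))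
    have : Int.fract (t c - a) = u - a := by
      rw [Int.fract_eq_iff]
      exact ⟨by linarith, by linarith, ⟨-m, by rw [e]; push_cast; ring⟩⟩
    simp only [hτ]
    rw [this]; ring
  set Ts : Finset ℝ := (Finset.univ.image τ).filter (fun u => (Tie u).Nonempty) with hTs
  have hmem : ∀ u, u ∈ Ts.sort → (Tie u).Nonempty ∧ a < u ∧ u < a + 1 := by
    intro u hu
    rw [Finset.mem_sort, hTs, Finset.mem_filter, Finset.mem_image] at hu
    obtain ⟨⟨c, -, rfl⟩, hne⟩ := hu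
    obtain ⟨c', hc'⟩ := hne
    refine ⟨⟨c', hc'⟩, lt_of_le_of_ne (hτ1 c).1 (fun h' => hna _ c' hc' 0 (by rw [← h']; simp)),
      (hτ1 c).2⟩
  have hpw : Ts.sort.Pairwise (· < ·) := (Finset.sortedLT_sort _).pairwise
  refine ⟨Ts.sort.map Tie, ?_, ?_, ?_⟩
  · intro S hS
    obtain ⟨u, hu, rfl⟩ := List.mem_map.mp hS
    exact (hmem u hu).1
  · rw [List.pairwise_map]
    refine hpw.imp_of_mem ?_
    intro u v hu hv huv
    rw [Set.disjoint_left]
    intro c hc hc'
    obtain ⟨n, hn⟩ := once c u v hc hc'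
    have h1 := hmem u hu
    have h2 := hmem v hv
    have a1 : (0 : ℝ) < n := by linarith
    have a2 : (n : ℝ) < 1 := by linarith [h1.2.1, h2.2.2]
    have a1' : 0 < n := by exact_mod_cast a1
    have a2' : n < 1 := by exact_mod_cast a2
    omega
  · refine walk near ne h0 hR Ts.sort a hpw (fun t ht => (hmem t ht).2) (by linarith) ?_ hh hh'
    intro u hu huT
    by_contra hne
    obtain ⟨c, hc⟩ := Set.nonempty_iff_ne_empty.mpr hne
    apply huT
    rw [Finset.mem_sort, hTs, Finset.mem_filter, Finset.mem_image]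
    exact ⟨⟨c, Finset.mem_univ _, (hτ2 u c hc hu).symm⟩, ⟨c, hc⟩⟩

end Vale.Agent.P032.Words6.H984
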